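import Vale.Agent.Helper16.KTVG.Plan

/-!
# Switch chain on general graphs (problem P335): degree bookkeeping

Degrees as sums of adjacency indicators, and the consequences of two graphs with the same
degree vector agreeing off a set of slots.
-/

namespace KTVG

open Finset Vale.Agent.Helper13.Switch
open Classical

variable {n : ℕ}

theorem adjN_comm (G : SimpleGraph (Fin n)) (x y : Fin n) : adjN G x y = adjN G y x := by
  unfold adjN
  by_cases h : G.Adj x y
  · rw [if_pos h, if_pos h.symm]
  · rw [if_neg h, if_neg (fun h' => h h'.symm)]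

theorem adjN_self (G : SimpleGraph (Fin n)) (x : Fin n) : adjN G x x = 0 := by
  unfold adjN
  rw [if_neg (G.irrefl)]

theorem adjN_le_one (G : SimpleGraph (Fin n)) (x y : Fin n) : adjN G x y ≤ 1 := by
  unfold adjN
  split_ifs <;> omega

theorem adjN_eq_one_iff (G : SimpleGraph (Fin n)) (x y : Fin n) :
    adjN G x y = 1 ↔ G.Adj x y := by
  unfold adjN
  split_ifs with h <;> simp [h]

theorem adjN_eq_zero_iff (G : SimpleGraph (Fin n)) (x y : Fin n) :
    adjN G x y = 0 ↔ ¬ G.Adj x y := by
  unfold adjN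
  split_ifs with h <;> simp [h]

/-- equal adjacency gives equal indicators -/
theorem adjN_congr {G G' : SimpleGraph (Fin n)} {x y : Fin n} (h : G.Adj x y ↔ G'.Adj x y) :
    adjN G x y = adjN G' x y := by
  unfold adjN
  by_cases h1 : G.Adj x y
  · rw [if_pos h1, if_pos (h.1 h1)]
  · rw [if_neg h1, if_neg (fun h' => h1 (h.2 h'))]

/-- equal indicators give equal adjacency -/
theorem adj_iff_of_adjN_eq {G G' : SimpleGraph (Fin n)} {x y : Fin n}
    (h : adjN G x y = adjN G' x y) : G.Adj x y ↔ G'.Adj x y := by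
  rw [← adjN_eq_one_iff G, ← adjN_eq_one_iff G', h]

/-- **(i)** the degree is the sum of the adjacency indicators -/
theorem degree_eq_sum (G : SimpleGraph (Fin n)) (x : Fin n) :
    G.degree x = ∑ y, adjN G x y := by
  rw [← SimpleGraph.card_neighborFinset_eq_degree, SimpleGraph.neighborFinset_eq_filter,
    Finset.card_filter]
  rfl

/-- the degree split along a set `S` of possible neighbours -/
theorem degree_split (G : SimpleGraph (Fin n)) (x : Fin n) (S : Finset (Fin n)) :
    G.degree x = ∑ y ∈ S, adjN G x y + ∑ y ∈ univ \ S, adjN G x y := by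
  rw [degree_eq_sum, ← Finset.sum_sdiff (Finset.subset_univ S), add_comm]

/-- **(ii), general form**: two graphs with the same degree at `x` which agree on all slots
at `x` outside `S` have the same number of edges from `x` into `S` -/
theorem sum_adjN_eq_of_agree {G G' : SimpleGraph (Fin n)} {x : Fin n}
    (hdeg : G.degree x = G'.degree x) (S : Finset (Fin n))
    (h : ∀ y, y ∉ S → (G.Adj x y ↔ G'.Adj x y)) :
    ∑ y ∈ S, adjN G x y = ∑ y ∈ S, adjN G' x y := by
  have h1 := degree_split G x S
  have h2 := degree_split G' x S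
  have h3 : ∑ y ∈ univ \ S, adjN G x y = ∑ y ∈ univ \ S, adjN G' x y :=
    Finset.sum_congr rfl (fun y hy => adjN_congr (h y (Finset.mem_sdiff.1 hy).2))
  omega

/-- **(ii)** for graphs of `gOmega n d` -/
theorem sum_adjN_eq_of_agree_gOmega {d : Fin n → ℕ} {G G' : SimpleGraph (Fin n)}
    (hG : G ∈ gOmega n d) (hG' : G' ∈ gOmega n d) (x : Fin n) (S : Finset (Fin n))
    (h : ∀ y, y ∉ S → (G.Adj x y ↔ G'.Adj x y)) :
    ∑ y ∈ S, adjN G x y = ∑ y ∈ S, adjN G' x y :=
  sum_adjN_eq_of_agree (by rw [mem_gOmega.1 hG x, mem_gOmega.1 hG' x]) S h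

/-- **(ii), two slots**: if `G`, `G'` of `gOmega n d` agree on all slots at `x` except
`x a` and `x b`, then the number of edges from `x` to `{a, b}` is the same -/
theorem adjN_pair_eq {d : Fin n → ℕ} {G G' : SimpleGraph (Fin n)}
    (hG : G ∈ gOmega n d) (hG' : G' ∈ gOmega n d) (x : Fin n) {a b : Fin n} (hab : a ≠ b)
    (h : ∀ y, y ≠ a → y ≠ b → (G.Adj x y ↔ G'.Adj x y)) :
    adjN G x a + adjN G x b = adjN G' x a + adjN G' x b := by
  have := sum_adjN_eq_of_agree_gOmega hG hG' x {a, b} (fun y hy => by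
    rw [Finset.mem_insert, Finset.mem_singleton, not_or] at hy
    exact h y hy.1 hy.2)
  rwa [Finset.sum_pair hab, Finset.sum_pair hab] at this

/-- same pair label: the graphs agree on every slot with both ends outside `{u, v}` -/
theorem labP_eq_iff (u v : Fin n) (G G' : SimpleGraph (Fin n)) :
    labP u v G = labP u v G' ↔
      ∀ x y, x ≠ u → x ≠ v → y ≠ u → y ≠ v → (G.Adj x y ↔ G'.Adj x y) := by
  unfold labP labOffV
  rw [slotLab_eq_iff]
  constructor
  · intro h x y hxu hxv hyu hyv
    refine h x y ?_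
    simp only [Rinc, Finset.mem_insert, Finset.mem_singleton]
    tauto
  · intro h x y hxy
    simp only [Rinc, Finset.mem_insert, Finset.mem_singleton] at hxy
    refine h x y ?_ ?_ ?_ ?_ <;> tauto

/-- with the same pair label, every other vertex has the same number of edges into
`{u, v}` -/
theorem adjN_pair_of_labP {d : Fin n → ℕ} {G G' : SimpleGraph (Fin n)}
    (hG : G ∈ gOmega n d) (hG' : G' ∈ gOmega n d) {u v : Fin n} (huv : u ≠ v)
    (hlab : labP u v G = labP u v G') {x : Fin n} (hxu : x ≠ u) (hxv : x ≠ v) :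
    adjN G x u + adjN G x v = adjN G' x u + adjN G' x v :=
  adjN_pair_eq hG hG' x huv (fun y hyu hyv => (labP_eq_iff u v G G').1 hlab x y hxu hxv hyu hyv)

/-- **(iii)** the slot `u v` is determined by the pair label: two graphs of `gOmega n d`
with the same `labP u v` agree on the slot `u v` -/
theorem adj_uv_of_labP {d : Fin n → ℕ} {G G' : SimpleGraph (Fin n)}
    (hG : G ∈ gOmega n d) (hG' : G' ∈ gOmega n d) {u v : Fin n} (huv : u ≠ v)
    (hlab : labP u v G = labP u v G') : G.Adj u v ↔ G'.Adj u v := by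
  -- deg u + deg v = 2 [uv] + Σ_{x ∉ {u,v}} ([xu] + [xv])
  have key : ∀ H : SimpleGraph (Fin n), H.degree u + H.degree v
      = 2 * adjN H u v + ∑ x ∈ univ \ {u, v}, (adjN H x u + adjN H x v) := by
    intro H
    rw [degree_split H u {u, v}, degree_split H v {u, v}, Finset.sum_pair huv,
      Finset.sum_pair huv, adjN_self, adjN_self, adjN_comm H v u, Finset.sum_add_distrib]
    have e1 : ∑ y ∈ univ \ {u, v}, adjN H u y = ∑ y ∈ univ \ {u, v}, adjN H y u :=
      Finset.sum_congr rfl (fun y _ => adjN_comm H u y)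
    have e2 : ∑ y ∈ univ \ {u, v}, adjN H v y = ∑ y ∈ univ \ {u, v}, adjN H y v :=
      Finset.sum_congr rfl (fun y _ => adjN_comm H v y)
    rw [e1, e2]; ring
  have h1 := key G
  have h2 := key G'
  have h3 : ∑ x ∈ univ \ {u, v}, (adjN G x u + adjN G x v)
      = ∑ x ∈ univ \ {u, v}, (adjN G' x u + adjN G' x v) := by
    refine Finset.sum_congr rfl (fun x hx => ?_)
    rw [Finset.mem_sdiff, Finset.mem_insert, Finset.mem_singleton, not_or] at hx
    exact adjN_pair_of_labP hG hG' huv hlab hx.2.1 hx.2.2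
  rw [mem_gOmega.1 hG u, mem_gOmega.1 hG v] at h1
  rw [mem_gOmega.1 hG' u, mem_gOmega.1 hG' v] at h2
  have h4 : adjN G u v = adjN G' u v := by omega
  exact adj_iff_of_adjN_eq h4

/-- the number of block edges is constant on the classes of `labP u v` -/
theorem yB_eq_of_labP {d : Fin n → ℕ} {G G' : SimpleGraph (Fin n)}
    (hG : G ∈ gOmega n d) (hG' : G' ∈ gOmega n d) {u v w z : Fin n} (h4 : D4 u v w z)
    (hlab : labP u v G = labP u v G') : yB u v w z G = yB u v w z G' := by
  obtain ⟨huv, huw, huz, hvw, hvz, hwz⟩ := h4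
  have hw := adjN_pair_of_labP hG hG' huv hlab (x := w) huw.symm hvw.symm
  have hz := adjN_pair_of_labP hG hG' huv hlab (x := z) huz.symm hvz.symm
  unfold yB
  rw [adjN_comm G u w, adjN_comm G u z, adjN_comm G v w, adjN_comm G v z,
    adjN_comm G' u w, adjN_comm G' u z, adjN_comm G' v w, adjN_comm G' v z]
  omega

/-- **OddStmt, part (1)**: the parity event is a union of classes of `labP u v` -/
theorem oddB_iff_of_labP {d : Fin n → ℕ} {G G' : SimpleGraph (Fin n)}
    (hG : G ∈ gOmega n d) (hG' : G' ∈ gOmega n d) {u v w z : Fin n} (h4 : D4 u v w z)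
    (hlab : labP u v G = labP u v G') : OddB u v w z G ↔ OddB u v w z G' := by
  unfold OddB
  rw [yB_eq_of_labP hG hG' h4 hlab]

end KTVG
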